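import Vale.Agent.P328.Rows
open Finset MvPolynomial

namespace Vale.Agent.P328

variable {m n : ℕ}

/-- S3: product of the row polynomials when all row sums are at most two -/
lemma prod_rowpoly (r : Fin m → ℕ) (hr : ∀ i, r i ≤ 2) :
    (2 : MvPolynomial (Fin n) ℚ) ^ (univ.filter fun i => r i = 2).card * ∏ i, rowpoly n (r i)
      = p1 n ^ (univ.filter fun i => r i = 1).card *
        (p1 n ^ 2 + p2 n) ^ (univ.filter fun i => r i = 2).card := by
  classical
  have h : ∀ i, rowpoly n (r i) =
      (if r i = 1 then p1 n else 1) * (if r i = 2 then rowpoly n 2 else 1) := by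
    intro i
    have := hr i
    interval_cases h : r i
    · simp [rowpoly_zero]
    · simp [rowpoly_one]
    · simp
  simp_rw [h]
  rw [Finset.prod_mul_distrib, Finset.prod_ite, Finset.prod_ite]
  simp only [Finset.prod_const, one_pow, mul_one]
  rw [← two_mul_rowpoly_two, mul_pow]
  ring

/-- S4: coefficient of a product of powers of the two power sums -/
lemma cf_p1_pow_mul_p2_pow (c : Fin n → ℕ) (s k : ℕ) (hs : s + 2 * k = ∑ j, c j) :
    cf c (p1 n ^ s * p2 n ^ k) =
      ∑ d ∈ piAntidiag (univ : Finset (Fin n)) k,
        if ∀ j, 2 * d j ≤ c j then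
          ((Nat.multinomial univ d : ℕ) : ℚ) * ((Nat.multinomial univ fun j => c j - 2 * d j : ℕ) : ℚ)
        else 0 := by
  classical
  rw [p1_pow, p2_pow, Finset.sum_mul_sum, Finset.sum_comm, map_sum]
  apply Finset.sum_congr rfl
  intro d hd
  have hd' : ∑ j, d j = k := (mem_piAntidiag.1 hd).1
  rw [map_sum]
  have hterm : ∀ u : Fin n → ℕ,
      cf c (C ((Nat.multinomial univ u : ℕ) : ℚ) * mono u *
        (C ((Nat.multinomial univ d : ℕ) : ℚ) * mono fun j => 2 * d j)) =
      if u + (fun j => 2 * d j) = c then
        ((Nat.multinomial univ u : ℕ) : ℚ) * ((Nat.multinomial univ d : ℕ) : ℚ) else 0 := by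
    intro u
    have : C ((Nat.multinomial univ u : ℕ) : ℚ) * mono u *
        (C ((Nat.multinomial univ d : ℕ) : ℚ) * mono fun j => 2 * d j) =
        C (((Nat.multinomial univ u : ℕ) : ℚ) * ((Nat.multinomial univ d : ℕ) : ℚ)) *
          mono (u + fun j => 2 * d j) := by
      rw [mono_add, C_mul]; ring
    rw [this, cf_natCast_mul_mono]
  simp_rw [hterm]
  by_cases hle : ∀ j, 2 * d j ≤ c j
  · rw [if_pos hle, Finset.sum_eq_single (fun j => c j - 2 * d j)]
    · rw [if_pos]
      · ring
      · funext j
        have := hle j
        simp only [Pi.add_apply]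
        omega
    · intro u _ hu
      rw [if_neg]
      intro h
      apply hu
      funext j
      have := congrFun h j
      simp only [Pi.add_apply] at this
      omega
    · intro hnot
      exfalso
      apply hnot
      rw [mem_piAntidiag]
      refine ⟨?_, fun _ _ => mem_univ _⟩
      have h1 : ∑ j, (c j - 2 * d j) + ∑ j, 2 * d j = ∑ j, c j := by
        rw [← Finset.sum_add_distrib]
        apply Finset.sum_congr rfl
        intro j _
        have := hle j
        omega
      rw [← Finset.mul_sum, hd'] at h1
      omega
  · rw [if_neg hle]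
    apply Finset.sum_eq_zero
    intro u _
    rw [if_neg]
    intro h
    apply hle
    intro j
    have := congrFun h j
    simp only [Pi.add_apply] at this
    omega

end Vale.Agent.P328
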