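import Mathlib
open Finset MvPolynomial

namespace Vale.Agent.P328

variable {n : ℕ}

/-- the monomial with exponent vector `x` -/
noncomputable def mono (x : Fin n → ℕ) : MvPolynomial (Fin n) ℚ := ∏ j, X j ^ x j

/-- coefficient extraction at the exponent vector `c` -/
noncomputable def cf (c : Fin n → ℕ) : MvPolynomial (Fin n) ℚ →ₗ[ℚ] ℚ :=
  MvPolynomial.lcoeff ℚ (Finsupp.equivFunOnFinite.symm c)

lemma mono_zero : mono (0 : Fin n → ℕ) = 1 := by simp [mono]

lemma mono_add (x y : Fin n → ℕ) : mono (x + y) = mono x * mono y := by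
  simp [mono, pow_add, Finset.prod_mul_distrib]

lemma mono_sum {ι : Type*} (s : Finset ι) (w : ι → Fin n → ℕ) :
    ∏ i ∈ s, mono (w i) = mono (∑ i ∈ s, w i) := by
  classical
  induction s using Finset.induction_on with
  | empty => simp [mono_zero]
  | insert a s ha ih => rw [Finset.prod_insert ha, Finset.sum_insert ha, mono_add, ih]

lemma cf_mono (c x : Fin n → ℕ) : cf c (mono x) = if x = c then 1 else 0 := by
  classical
  simp only [cf, mono, lcoeff_apply, coeff_prod_X_pow]
  congr 1
  apply propext
  constructor
  · intro h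
    funext j
    have := DFunLike.congr_fun h j
    simpa using this.symm
  · rintro rfl
    ext j
    simp

lemma cf_natCast_mul_mono (c x : Fin n → ℕ) (a : ℚ) :
    cf c (C a * mono x) = if x = c then a else 0 := by
  rw [← smul_eq_C_mul, map_smul, cf_mono]
  split_ifs <;> simp

end Vale.Agent.P328
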