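import Vale.Agent.P328.Tables
open Finset MvPolynomial

namespace Vale.Agent.P328

variable {n : ℕ}

/-- first power sum -/
noncomputable def p1 (n : ℕ) : MvPolynomial (Fin n) ℚ := ∑ j, X j
/-- second power sum -/
noncomputable def p2 (n : ℕ) : MvPolynomial (Fin n) ℚ := ∑ j, X j ^ 2

lemma p1_pow (s : ℕ) : p1 n ^ s =
    ∑ u ∈ piAntidiag (univ : Finset (Fin n)) s, C ((Nat.multinomial univ u : ℕ) : ℚ) * mono u := by
  rw [p1, Finset.sum_pow_eq_sum_piAntidiag]
  apply Finset.sum_congr rfl
  intro u _
  simp [mono]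

lemma p2_pow (k : ℕ) : p2 n ^ k =
    ∑ d ∈ piAntidiag (univ : Finset (Fin n)) k,
      C ((Nat.multinomial univ d : ℕ) : ℚ) * mono (fun j => 2 * d j) := by
  rw [p2, Finset.sum_pow_eq_sum_piAntidiag]
  apply Finset.sum_congr rfl
  intro u _
  simp [mono, pow_mul]

lemma rowpoly_zero : rowpoly n 0 = 1 := by
  simp [rowpoly, mono_zero]

lemma multinomial_of_le_one (v : Fin n → ℕ) (h : ∀ j, v j ≤ 1) :
    Nat.multinomial univ v = (∑ j, v j).factorial := by
  have hprod : ∏ j, (v j).factorial = 1 := by
    apply Finset.prod_eq_one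
    intro j _
    have := h j
    interval_cases (v j) <;> simp
  have := Nat.multinomial_spec univ v
  rw [hprod, one_mul] at this
  exact this

lemma rowpoly_one : rowpoly n 1 = p1 n := by
  have h := p1_pow (n := n) 1
  rw [pow_one] at h
  rw [h, rowpoly]
  apply Finset.sum_congr rfl
  intro v hv
  have hv' : ∑ j, v j = 1 := (mem_piAntidiag.1 hv).1
  have hle : ∀ j, v j ≤ 1 := by
    intro j
    rw [← hv']
    exact Finset.single_le_sum (f := v) (fun _ _ => Nat.zero_le _) (mem_univ j)
  rw [multinomial_of_le_one v hle, hv']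
  simp

lemma eq_single_of_sum_two {v : Fin n → ℕ} (hv : ∑ j, v j = 2) {j : Fin n} (hj : v j = 2) :
    v = Pi.single j 2 := by
  funext i
  by_cases hij : i = j
  · subst hij; simp [hj]
  · rw [Pi.single_eq_of_ne hij]
    have h2 : v i + v j ≤ ∑ l, v l := by
      have := Finset.sum_le_sum_of_subset (f := v) (Finset.subset_univ ({i, j} : Finset (Fin n)))
      rwa [Finset.sum_pair hij] at this
    omega

lemma multinomial_single (j : Fin n) : Nat.multinomial univ (Pi.single j 2 : Fin n → ℕ) = 1 := by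
  have h := Nat.multinomial_spec univ (Pi.single j 2 : Fin n → ℕ)
  have h1 : ∑ i, (Pi.single j 2 : Fin n → ℕ) i = 2 := by simp
  have h2 : ∏ i, ((Pi.single j 2 : Fin n → ℕ) i).factorial = 2 := by
    rw [Finset.prod_eq_single j]
    · simp
    · intro b _ hb
      simp [Pi.single_eq_of_ne hb]
    · simp
  rw [h1, h2] at h
  simpa using h

lemma p2_eq : p2 n = ∑ v ∈ piAntidiag (univ : Finset (Fin n)) 2,
    if ∃ j, v j = 2 then mono v else 0 := by
  classical
  rw [← Finset.sum_filter]
  have himg : (piAntidiag (univ : Finset (Fin n)) 2).filter (fun v => ∃ j, v j = 2)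
      = univ.image (fun j : Fin n => (Pi.single j 2 : Fin n → ℕ)) := by
    ext v
    simp only [mem_filter, mem_piAntidiag, mem_univ, implies_true, and_true, mem_image, true_and]
    constructor
    · rintro ⟨hv, j, hj⟩
      exact ⟨j, (eq_single_of_sum_two hv hj).symm⟩
    · rintro ⟨j, rfl⟩
      exact ⟨by simp, j, by simp⟩
  rw [himg, Finset.sum_image]
  · rw [p2]
    apply Finset.sum_congr rfl
    intro j _
    rw [mono, Finset.prod_eq_single j]
    · simp
    · intro b _ hb
      simp [Pi.single_eq_of_ne hb]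
    · simp
  · intro a _ b _ hab
    by_contra hne
    have := congrFun hab a
    simp only [Pi.single_eq_same, Pi.single_eq_of_ne hne] at this
    omega

lemma two_mul_rowpoly_two : 2 * rowpoly n 2 = p1 n ^ 2 + p2 n := by
  classical
  rw [p1_pow, p2_eq, ← Finset.sum_add_distrib, rowpoly, Finset.mul_sum]
  apply Finset.sum_congr rfl
  intro v hv
  have hv' : ∑ j, v j = 2 := (mem_piAntidiag.1 hv).1
  by_cases h : ∃ j, v j = 2
  · obtain ⟨j, hj⟩ := h
    have hvs := eq_single_of_sum_two hv' hj
    rw [if_pos ⟨j, hj⟩, hvs, multinomial_single]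
    simp
    ring
  · rw [if_neg h]
    have hle : ∀ j, v j ≤ 1 := by
      intro j
      have h1 : v j ≤ 2 := by
        rw [← hv']
        exact Finset.single_le_sum (f := v) (fun _ _ => Nat.zero_le _) (mem_univ j)
      have h2 : v j ≠ 2 := fun hh => h ⟨j, hh⟩
      omega
    rw [multinomial_of_le_one v hle, hv']
    have : (C (((2 : ℕ).factorial : ℕ) : ℚ) : MvPolynomial (Fin n) ℚ) = 2 := by
      simp [Nat.factorial]
      rfl
    rw [this, add_zero]

end Vale.Agent.P328
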