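import Vale.Agent.P328.Mono
open Finset MvPolynomial

namespace Vale.Agent.P328

variable {m n : ℕ}

/-- generating polynomial of the rows with sum `s` -/
noncomputable def rowpoly (n s : ℕ) : MvPolynomial (Fin n) ℚ :=
  ∑ v ∈ piAntidiag (univ : Finset (Fin n)) s, mono v

/-- the finset of contingency tables -/
noncomputable def tablesFinset (r : Fin m → ℕ) (c : Fin n → ℕ) : Finset (Fin m → Fin n → ℕ) :=
  (Fintype.piFinset fun i => piAntidiag (univ : Finset (Fin n)) (r i)).filter
    fun w => ∑ i, w i = c

lemma mem_tablesFinset (r : Fin m → ℕ) (c : Fin n → ℕ) (X : Fin m → Fin n → ℕ) :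
    X ∈ tablesFinset r c ↔ (∀ i, ∑ j, X i j = r i) ∧ (∀ j, ∑ i, X i j = c j) := by
  simp only [tablesFinset, mem_filter, Fintype.mem_piFinset, mem_piAntidiag, mem_univ,
    implies_true, and_true]
  apply and_congr Iff.rfl
  constructor
  · intro h j
    rw [← h]; simp
  · intro h
    funext j
    rw [← h j]; simp

lemma card_tables_eq (r : Fin m → ℕ) (c : Fin n → ℕ) :
    ((tablesFinset r c).card : ℚ) = cf c (∏ i, rowpoly n (r i)) := by
  classical
  simp only [rowpoly]
  rw [Finset.prod_univ_sum]
  simp only [mono_sum, map_sum, cf_mono]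
  rw [Finset.sum_ite, Finset.sum_const_zero, add_zero, Finset.sum_const, tablesFinset]
  simp

end Vale.Agent.P328
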